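import Vale.Agent.Lib.P335.Bip.Defs

/-!
# Abstract pair inequality for two averaging operators (problem P335, graph case)

Model-free projection algebra behind the disjoint-pair inequality: two averaging operators
`Xi`, `Xi2`, commuting refinements `a`, `a2`, `sg` and a set `N` outside of which the
cross term of invariant functions is nonnegative.
-/

namespace Vale.Agent.Lib.P335.H16

open Finset
open Classical
open Vale.Agent.Lib.P335.Bip

variable {Ω : Type} [Fintype Ω]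

theorem ip_comm (f g : Ω → ℝ) : ip f g = ip g f := by
  unfold ip
  exact Finset.sum_congr rfl (fun x _ => mul_comm _ _)

theorem ip_add_left (f g h : Ω → ℝ) : ip (f + g) h = ip f h + ip g h := by
  unfold ip
  rw [← Finset.sum_add_distrib]
  exact Finset.sum_congr rfl (fun x _ => by simp only [Pi.add_apply]; ring)

theorem ip_sub_left (f g h : Ω → ℝ) : ip (f - g) h = ip f h - ip g h := by
  unfold ip
  rw [← Finset.sum_sub_distrib]
  exact Finset.sum_congr rfl (fun x _ => by simp only [Pi.sub_apply]; ring)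

theorem ip_add_right (f g h : Ω → ℝ) : ip f (g + h) = ip f g + ip f h := by
  rw [ip_comm, ip_add_left, ip_comm g f, ip_comm h f]

theorem ip_sub_right (f g h : Ω → ℝ) : ip f (g - h) = ip f g - ip f h := by
  rw [ip_comm, ip_sub_left, ip_comm g f, ip_comm h f]

theorem ip_zero_right (f : Ω → ℝ) : ip f 0 = 0 := by
  unfold ip
  simp

theorem ip_self_nonneg (f : Ω → ℝ) : 0 ≤ ip f f := by
  unfold ip
  exact Finset.sum_nonneg (fun x _ => mul_self_nonneg _)

/-- An averaging operator: additive, compatible with subtraction, symmetric for the counting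
inner product and idempotent. -/
structure IsAvg (P : (Ω → ℝ) → (Ω → ℝ)) : Prop where
  add : ∀ f g, P (f + g) = P f + P g
  sub : ∀ f g, P (f - g) = P f - P g
  symm : ∀ f g, ip (P f) g = ip f (P g)
  idem : ∀ f, P (P f) = P f

theorem IsAvg.zero {P : (Ω → ℝ) → (Ω → ℝ)} (hP : IsAvg P) : P 0 = 0 := by
  have h := hP.sub 0 0
  simp only [sub_self] at h
  exact h

theorem IsAvg.ip_self {P : (Ω → ℝ) → (Ω → ℝ)} (hP : IsAvg P) (f : Ω → ℝ) :
    ip (P f) (P f) = ip f (P f) := by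
  rw [hP.symm, hP.idem]

/-- An averaging operator does not increase the square norm. -/
theorem IsAvg.contract {P : (Ω → ℝ) → (Ω → ℝ)} (hP : IsAvg P) (f : Ω → ℝ) :
    ip (P f) (P f) ≤ ip f f := by
  have h := ip_self_nonneg (f - P f)
  rw [ip_sub_left, ip_sub_right, ip_sub_right, hP.ip_self, ip_comm (P f) f] at h
  have h2 := hP.ip_self f
  linarith

/-- The complement of an averaging operator is an averaging operator. -/
theorem IsAvg.compl {P : (Ω → ℝ) → (Ω → ℝ)} (hP : IsAvg P) : IsAvg (fun f => f - P f) := by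
  refine ⟨?_, ?_, ?_, ?_⟩
  · intro f g
    show f + g - P (f + g) = f - P f + (g - P g)
    rw [hP.add]; abel
  · intro f g
    show f - g - P (f - g) = f - P f - (g - P g)
    rw [hP.sub]; abel
  · intro f g
    show ip (f - P f) g = ip f (g - P g)
    rw [ip_sub_left, ip_sub_right, hP.symm]
  · intro f
    show f - P f - P (f - P f) = f - P f
    rw [hP.sub, hP.idem]; abel

/-- The difference of two nested averaging operators is an averaging operator. -/
theorem IsAvg.diff {P Q : (Ω → ℝ) → (Ω → ℝ)} (hP : IsAvg P) (hQ : IsAvg Q)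
    (hPQ : ∀ f, P (Q f) = Q f) (hQP : ∀ f, Q (P f) = Q f) : IsAvg (fun f => P f - Q f) := by
  refine ⟨?_, ?_, ?_, ?_⟩
  · intro f g
    show P (f + g) - Q (f + g) = P f - Q f + (P g - Q g)
    rw [hP.add, hQ.add]; abel
  · intro f g
    show P (f - g) - Q (f - g) = P f - Q f - (P g - Q g)
    rw [hP.sub, hQ.sub]; abel
  · intro f g
    show ip (P f - Q f) g = ip f (P g - Q g)
    rw [ip_sub_left, ip_sub_right, hP.symm, hQ.symm]
  · intro f
    show P (P f - Q f) - Q (P f - Q f) = P f - Q f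
    rw [hP.sub, hQ.sub, hP.idem, hPQ, hQP, hQ.idem]; abel

/-- For commuting averaging operators `A`, `C`: `⟨g - A g, C g⟩ ≥ 0`. -/
theorem ip_compl_nonneg {A C : (Ω → ℝ) → (Ω → ℝ)} (hA : IsAvg A) (hC : IsAvg C)
    (hAC : ∀ f, A (C f) = C (A f)) (g : Ω → ℝ) : 0 ≤ ip (g - A g) (C g) := by
  have h1 : ip (g - A g) (C g) = ip (C g) (C g) - ip (A (C g)) (A (C g)) := by
    rw [← hC.idem g, ← hC.symm, hC.sub, hC.idem, ← hAC, ip_sub_left, hA.ip_self,
      ip_comm (C g) (A (C g))]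
  rw [h1]
  have h2 := hA.contract (C g)
  linarith

/-- The abstract pair inequality. -/
theorem pair_alg (Xi Xi2 a a2 sg : (Ω → ℝ) → (Ω → ℝ))
    (hXi : IsAvg Xi) (hXi2 : IsAvg Xi2) (ha : IsAvg a) (ha2 : IsAvg a2) (hsg : IsAvg sg)
    (hXi_a : ∀ f, Xi (a f) = Xi f) (ha_Xi : ∀ f, a (Xi f) = Xi f)
    (hXi_sg : ∀ f, Xi (sg f) = Xi f) (hsg_Xi : ∀ f, sg (Xi f) = Xi f)
    (hXi2_a2 : ∀ f, Xi2 (a2 f) = Xi2 f) (ha2_Xi2 : ∀ f, a2 (Xi2 f) = Xi2 f)
    (hXi2_sg : ∀ f, Xi2 (sg f) = Xi2 f) (hsg_Xi2 : ∀ f, sg (Xi2 f) = Xi2 f)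
    (haa2 : ∀ f, a (a2 f) = a2 (a f)) (hasg : ∀ f, a (sg f) = sg (a f))
    (ha2sg : ∀ f, a2 (sg f) = sg (a2 f))
    (hXi_a2 : ∀ f, Xi (a2 f) = a2 (Xi f)) (hXi2_a : ∀ f, Xi2 (a f) = a (Xi2 f))
    (N : Finset Ω)
    (hNa : ∀ k : Ω → ℝ, a (fun x => if x ∈ N then k x else 0)
      = fun x => if x ∈ N then a k x else 0)
    (hNa2 : ∀ k : Ω → ℝ, a2 (fun x => if x ∈ N then k x else 0)
      = fun x => if x ∈ N then a2 k x else 0)
    (hN1 : ∀ g : Ω → ℝ, a g = g → a2 g = g → sg g = g →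
      ∑ x ∈ N, (g - Xi g) x * (g - Xi2 g) x ≤ ip (g - Xi g) (g - Xi2 g))
    (f : Ω → ℝ) :
    ip (f - sg f) (f - sg f)
        - (1 / 2) * ∑ x ∈ N, (a (sg (f - Xi f)) x) ^ 2
        - (1 / 2) * ∑ x ∈ N, (a2 (sg (f - Xi2 f)) x) ^ 2
      ≤ ip (f - Xi f) (f - Xi2 f) := by
  -- Step 1: split off the `sg`-odd part
  set g0 : Ω → ℝ := sg f with hg0
  set B : Ω → ℝ := f - sg f with hB
  have hsgB : sg B = 0 := by rw [hB, hsg.sub, hsg.idem, sub_self]
  have e1 : f - Xi f = (g0 - Xi g0) + B := by rw [hg0, hB, hXi_sg]; abel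
  have e2 : f - Xi2 f = (g0 - Xi2 g0) + B := by rw [hg0, hB, hXi2_sg]; abel
  have inv1 : sg (g0 - Xi g0) = g0 - Xi g0 := by
    rw [hsg.sub, hg0, hsg.idem, hXi_sg, hsg_Xi]
  have inv2 : sg (g0 - Xi2 g0) = g0 - Xi2 g0 := by
    rw [hsg.sub, hg0, hsg.idem, hXi2_sg, hsg_Xi2]
  have c1 : ip (g0 - Xi g0) B = 0 := by
    rw [← inv1, hsg.symm, hsgB, ip_zero_right]
  have c2 : ip B (g0 - Xi2 g0) = 0 := by
    rw [ip_comm, ← inv2, hsg.symm, hsgB, ip_zero_right]
  have step1 : ip (f - Xi f) (f - Xi2 f) = ip (g0 - Xi g0) (g0 - Xi2 g0) + ip B B := by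
    rw [e1, e2, ip_add_left, ip_add_right, ip_add_right, c1, c2]; ring
  -- Step 2: the four-term decomposition
  set u : Ω → ℝ := a g0 - Xi g0 with hu
  set v : Ω → ℝ := a2 g0 - Xi2 g0 with hv
  set h : Ω → ℝ := a (a2 g0) with hh
  have e3 : g0 - Xi g0 = (g0 - a g0) + u := by rw [hu]; abel
  have e4 : g0 - Xi2 g0 = (g0 - a2 g0) + v := by rw [hv]; abel
  have t1 : 0 ≤ ip (g0 - a g0) (g0 - a2 g0) :=
    ip_compl_nonneg ha ha2.compl (fun f => by
      show a (f - a2 f) = a f - a2 (a f)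
      rw [ha.sub, haa2]) g0
  have t2 : 0 ≤ ip (g0 - a g0) v := by
    have := ip_compl_nonneg ha (ha2.diff hXi2 ha2_Xi2 hXi2_a2) (fun f => by
      show a (a2 f - Xi2 f) = a2 (a f) - Xi2 (a f)
      rw [ha.sub, haa2, hXi2_a]) g0
    exact this
  have t3 : 0 ≤ ip u (g0 - a2 g0) := by
    have := ip_compl_nonneg ha2 (ha.diff hXi ha_Xi hXi_a) (fun f => by
      show a2 (a f - Xi f) = a (a2 f) - Xi (a2 f)
      rw [ha2.sub, haa2, hXi_a2]) g0
    rw [ip_comm]
    exact this
  have hau : a u = u := by rw [hu, ha.sub, ha.idem, ha_Xi]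
  have ha2v : a2 v = v := by rw [hv, ha2.sub, ha2.idem, ha2_Xi2]
  have hYh : h - Xi h = a2 u := by
    rw [hh, hu, ha2.sub, hXi_a, hXi_a2, haa2]
  have hY2h : h - Xi2 h = a v := by
    rw [hh, hv, ha.sub, haa2, hXi2_a2, hXi2_a]
  have t4 : ip u v = ip (h - Xi h) (h - Xi2 h) := by
    rw [hYh, hY2h, ha2.symm, ← haa2, ha2v, ← ha.symm, hau]
  have step2 : ip (h - Xi h) (h - Xi2 h) ≤ ip (g0 - Xi g0) (g0 - Xi2 g0) := by
    rw [e3, e4, ip_add_left, ip_add_right, ip_add_right, t4]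
    linarith
  -- Step 3: the invariant function `h`
  have hah : a h = h := by rw [hh, ha.idem]
  have ha2h : a2 h = h := by rw [hh, ← haa2, ha2.idem]
  have hsgh : sg h = h := by rw [hh, hg0, ← hasg, ← ha2sg, hsg.idem]
  have step3 := hN1 h hah ha2h hsgh
  -- Step 4: bound the restricted square sums
  set k : Ω → ℝ := a (sg (f - Xi f)) with hk
  set k2 : Ω → ℝ := a2 (sg (f - Xi2 f)) with hk2
  have hk_eq : h - Xi h = a2 k := by
    rw [hYh, hu, hk, hsg.sub, hsg_Xi, ha.sub, ha_Xi, hg0, hXi_sg]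
  have hk2_eq : h - Xi2 h = a k2 := by
    rw [hY2h, hv, hk2, hsg.sub, hsg_Xi2, ha2.sub, ha2_Xi2, hg0, hXi2_sg]
  have bound1 : ∑ x ∈ N, ((h - Xi h) x) ^ 2 ≤ ∑ x ∈ N, (k x) ^ 2 := by
    have hc := ha2.contract (fun x => if x ∈ N then k x else 0)
    rw [hNa2 k, ← hk_eq] at hc
    unfold ip at hc
    have l1 : ∑ x, (if x ∈ N then (h - Xi h) x else 0) * (if x ∈ N then (h - Xi h) x else 0)
        = ∑ x ∈ N, ((h - Xi h) x) ^ 2 := by
      rw [← Finset.sum_filter_add_sum_filter_not univ (fun x => x ∈ N)]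
      have z : ∑ x ∈ univ.filter (fun x => ¬ x ∈ N),
          (if x ∈ N then (h - Xi h) x else 0) * (if x ∈ N then (h - Xi h) x else 0) = 0 := by
        apply Finset.sum_eq_zero
        intro x hx
        rw [if_neg (Finset.mem_filter.mp hx).2]; ring
      rw [z, add_zero]
      have : univ.filter (fun x => x ∈ N) = N := by ext x; simp
      rw [this]
      apply Finset.sum_congr rfl
      intro x hx
      rw [if_pos hx]; ring
    have l2 : ∑ x, (if x ∈ N then k x else 0) * (if x ∈ N then k x else 0)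
        = ∑ x ∈ N, (k x) ^ 2 := by
      rw [← Finset.sum_filter_add_sum_filter_not univ (fun x => x ∈ N)]
      have z : ∑ x ∈ univ.filter (fun x => ¬ x ∈ N),
          (if x ∈ N then k x else 0) * (if x ∈ N then k x else 0) = 0 := by
        apply Finset.sum_eq_zero
        intro x hx
        rw [if_neg (Finset.mem_filter.mp hx).2]; ring
      rw [z, add_zero]
      have : univ.filter (fun x => x ∈ N) = N := by ext x; simp
      rw [this]
      apply Finset.sum_congr rfl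
      intro x hx
      rw [if_pos hx]; ring
    rw [l1, l2] at hc
    exact hc
  have bound2 : ∑ x ∈ N, ((h - Xi2 h) x) ^ 2 ≤ ∑ x ∈ N, (k2 x) ^ 2 := by
    have hc := ha.contract (fun x => if x ∈ N then k2 x else 0)
    rw [hNa k2, ← hk2_eq] at hc
    unfold ip at hc
    have l1 : ∑ x, (if x ∈ N then (h - Xi2 h) x else 0) * (if x ∈ N then (h - Xi2 h) x else 0)
        = ∑ x ∈ N, ((h - Xi2 h) x) ^ 2 := by
      rw [← Finset.sum_filter_add_sum_filter_not univ (fun x => x ∈ N)]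
      have z : ∑ x ∈ univ.filter (fun x => ¬ x ∈ N),
          (if x ∈ N then (h - Xi2 h) x else 0) * (if x ∈ N then (h - Xi2 h) x else 0) = 0 := by
        apply Finset.sum_eq_zero
        intro x hx
        rw [if_neg (Finset.mem_filter.mp hx).2]; ring
      rw [z, add_zero]
      have : univ.filter (fun x => x ∈ N) = N := by ext x; simp
      rw [this]
      apply Finset.sum_congr rfl
      intro x hx
      rw [if_pos hx]; ring
    have l2 : ∑ x, (if x ∈ N then k2 x else 0) * (if x ∈ N then k2 x else 0)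
        = ∑ x ∈ N, (k2 x) ^ 2 := by
      rw [← Finset.sum_filter_add_sum_filter_not univ (fun x => x ∈ N)]
      have z : ∑ x ∈ univ.filter (fun x => ¬ x ∈ N),
          (if x ∈ N then k2 x else 0) * (if x ∈ N then k2 x else 0) = 0 := by
        apply Finset.sum_eq_zero
        intro x hx
        rw [if_neg (Finset.mem_filter.mp hx).2]; ring
      rw [z, add_zero]
      have : univ.filter (fun x => x ∈ N) = N := by ext x; simp
      rw [this]
      apply Finset.sum_congr rfl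
      intro x hx
      rw [if_pos hx]; ring
    rw [l1, l2] at hc
    exact hc
  -- AM-GM on `N`
  have amgm : -(1 / 2) * ∑ x ∈ N, ((h - Xi h) x) ^ 2 - (1 / 2) * ∑ x ∈ N, ((h - Xi2 h) x) ^ 2
      ≤ ∑ x ∈ N, (h - Xi h) x * (h - Xi2 h) x := by
    have : ∀ x ∈ N, -(1 / 2) * ((h - Xi h) x) ^ 2 - (1 / 2) * ((h - Xi2 h) x) ^ 2
        ≤ (h - Xi h) x * (h - Xi2 h) x := by
      intro x _
      nlinarith [sq_nonneg ((h - Xi h) x + (h - Xi2 h) x)]
    have s := Finset.sum_le_sum this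
    rw [Finset.sum_sub_distrib, ← Finset.mul_sum, ← Finset.mul_sum] at s
    exact s
  rw [step1]
  linarith
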