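import Vale.Agent.Lib.P335.H16.PairAlg
import Vale.Agent.Lib.P335.H8.EqAvg

/-!
# Abstract two-orbit inequality (problem P335, graph case)

Two equivalence relations `rb`, `rc` (the orbits of two disjoint pairs), refinements `ra`, `ra2`,
an involution `F` (the flip) with moved points `Nn`, and a set `Z` on which the two relations
commute (rectangle completion).  The conclusion is the disjoint-pair inequality with the
correction terms `kapE`.  Everything is model-free; the projection algebra is `pair_alg`.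
-/

set_option linter.unusedSectionVars false

namespace Vale.Agent.Lib.P335.H16

open Finset
open Classical
open Vale.Agent.Lib.P335.Bip
open Vale.Agent.Lib.P335.H8

variable {Ω : Type} [Fintype Ω]

theorem isAvg_eavg {r : Ω → Ω → Prop} (hr : Equivalence r) : IsAvg (eavg r) :=
  ⟨fun f g => eavg_add f g, fun f g => eavg_sub f g, fun f g => eavg_symm hr f g,
    fun f => eavg_idem hr f⟩

/-- Class averages commute with the restriction to a saturated set. -/
theorem eavg_restrict {r : Ω → Ω → Prop} (N : Finset Ω)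
    (hP : ∀ x y, r x y → (x ∈ N ↔ y ∈ N)) (k : Ω → ℝ) :
    eavg r (fun x => if x ∈ N then k x else 0) = fun x => if x ∈ N then eavg r k x else 0 := by
  funext x
  unfold eavg
  by_cases hx : x ∈ N
  · rw [if_pos hx]
    congr 1
    apply Finset.sum_congr rfl
    intro y hy
    show (if y ∈ N then k y else 0) = k y
    rw [if_pos ((hP x y (mem_ecls.1 hy)).1 hx)]
  · rw [if_neg hx]
    have h0 : ∑ y ∈ ecls r x, (if y ∈ N then k y else 0) = 0 := by
      apply Finset.sum_eq_zero
      intro y hy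
      rw [if_neg (fun h => hx ((hP x y (mem_ecls.1 hy)).2 h))]
    rw [h0, zero_div]

/-- The class average at a point where the function is constant on the class. -/
theorem eavg_apply_of_const {r : Ω → Ω → Prop} (hr : Equivalence r) (g : Ω → ℝ) (x : Ω)
    (h : ∀ y, r x y → g y = g x) : eavg r g x = g x := by
  unfold eavg
  have h1 : ∑ y ∈ ecls r x, g y = ∑ _y ∈ ecls r x, g x :=
    Finset.sum_congr rfl fun y hy => h y (mem_ecls.1 hy)
  rw [h1, Finset.sum_const, nsmul_eq_mul]
  have hpos := card_ecls_pos hr x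
  field_simp

/-- The relation `r` restricted to the set `Z` (trivial outside). -/
def relOn (Z : Ω → Prop) (r : Ω → Ω → Prop) (x y : Ω) : Prop := (Z x ∧ r x y) ∨ x = y

theorem relOn_equiv {Z : Ω → Prop} {r : Ω → Ω → Prop} (hr : Equivalence r)
    (hZ : ∀ x y, r x y → (Z x ↔ Z y)) : Equivalence (relOn Z r) := by
  refine ⟨fun x => Or.inr rfl, ?_, ?_⟩
  · intro x y h
    rcases h with ⟨hx, hxy⟩ | h
    · exact Or.inl ⟨(hZ x y hxy).1 hx, hr.symm hxy⟩
    · exact Or.inr h.symm
  · intro x y z h1 h2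
    rcases h1 with ⟨hx, hxy⟩ | h1
    · rcases h2 with ⟨_, hyz⟩ | h2
      · exact Or.inl ⟨hx, hr.trans hxy hyz⟩
      · rw [← h2]; exact Or.inl ⟨hx, hxy⟩
    · rw [h1]; exact h2

theorem eavg_relOn_of_mem {Z : Ω → Prop} {r : Ω → Ω → Prop} (hr : Equivalence r)
    (f : Ω → ℝ) {x : Ω} (hx : Z x) : eavg (relOn Z r) f x = eavg r f x := by
  have h : ecls (relOn Z r) x = ecls r x := by
    ext y
    rw [mem_ecls, mem_ecls]
    constructor
    · intro h
      rcases h with ⟨_, h⟩ | h
      · exact h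
      · rw [← h]; exact hr.refl x
    · intro h
      exact Or.inl ⟨hx, h⟩
  unfold eavg
  rw [h]

theorem eavg_relOn_of_not_mem {Z : Ω → Prop} {r : Ω → Ω → Prop}
    (f : Ω → ℝ) {x : Ω} (hx : ¬ Z x) : eavg (relOn Z r) f x = f x := by
  have h : ecls (relOn Z r) x = {x} := by
    ext y
    rw [mem_ecls, Finset.mem_singleton]
    constructor
    · intro h
      rcases h with ⟨h, _⟩ | h
      · exact absurd h hx
      · exact h.symm
    · intro h
      exact Or.inr h.symm
  unfold eavg
  rw [h]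
  simp

/-- Rectangle completion on `Z`: the restricted averages commute. -/
theorem relOn_comm {Z : Ω → Prop} {rb rc : Ω → Ω → Prop} (hrb : Equivalence rb)
    (hrc : Equivalence rc) (hZb : ∀ x y, rb x y → (Z x ↔ Z y))
    (hZc : ∀ x y, rc x y → (Z x ↔ Z y))
    (hrect : ∀ x y z, Z y → rb x y → rc y z → ∃ w, rc x w ∧ rb w z)
    (hZuniq : ∀ x y, Z x → rb x y → rc x y → x = y) (f : Ω → ℝ) :
    eavg (relOn Z rb) (eavg (relOn Z rc) f) = eavg (relOn Z rc) (eavg (relOn Z rb) f) := by
  refine eavg_comm_of_preserves (relOn_equiv hrb hZb) (relOn_equiv hrc hZc) ?_ f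
  intro g hg
  refine eavg_preserves_of_bij (r := relOn Z rb) (r' := relOn Z rc) ?_ g hg
  intro u v huv
  rcases huv with ⟨hu, huv⟩ | huv
  · have hv : Z v := (hZc u v huv).1 hu
    let φ : Ω → Ω := fun w => if h : ∃ w', rc w w' ∧ rb w' v then Classical.choose h else w
    let ψ : Ω → Ω := fun w => if h : ∃ w', rc w w' ∧ rb w' u then Classical.choose h else w
    have hφ : ∀ w, (∃ w', rc w w' ∧ rb w' v) → rc w (φ w) ∧ rb (φ w) v := by
      intro w h
      have e : φ w = Classical.choose h := dif_pos h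
      rw [e]
      exact Classical.choose_spec h
    have hψ : ∀ w, (∃ w', rc w w' ∧ rb w' u) → rc w (ψ w) ∧ rb (ψ w) u := by
      intro w h
      have e : ψ w = Classical.choose h := dif_pos h
      rw [e]
      exact Classical.choose_spec h
    refine ⟨φ, ψ, ?_, ?_⟩
    · intro w hw
      have hbw : rb u w := by
        rcases hw with ⟨_, h⟩ | h
        · exact h
        · rw [← h]; exact hrb.refl _
      have hZw : Z w := (hZb u w hbw).1 hu
      obtain ⟨h1, h2⟩ := hφ w (hrect w u v hu (hrb.symm hbw) huv)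
      refine ⟨Or.inl ⟨hv, hrb.symm h2⟩, Or.inl ⟨hZw, h1⟩, ?_⟩
      obtain ⟨h3, h4⟩ := hψ (φ w) ⟨w, hrc.symm h1, hrb.symm hbw⟩
      exact (hZuniq w (ψ (φ w)) hZw (hrb.trans (hrb.symm hbw) (hrb.symm h4))
        (hrc.trans h1 h3)).symm
    · intro w hw
      have hbw : rb v w := by
        rcases hw with ⟨_, h⟩ | h
        · exact h
        · rw [← h]; exact hrb.refl _
      have hZw : Z w := (hZb v w hbw).1 hv
      obtain ⟨h1, h2⟩ := hψ w (hrect w v u hv (hrb.symm hbw) (hrc.symm huv))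
      refine ⟨Or.inl ⟨hu, hrb.symm h2⟩, ?_⟩
      obtain ⟨h3, h4⟩ := hφ (ψ w) ⟨w, hrc.symm h1, hrb.symm hbw⟩
      exact (hZuniq w (φ (ψ w)) hZw (hrb.trans (hrb.symm hbw) (hrb.symm h4))
        (hrc.trans h1 h3)).symm
  · rw [← huv]
    refine ⟨id, id, ?_, ?_⟩
    · intro w hw
      exact ⟨hw, Or.inr rfl, rfl⟩
    · intro w hw
      exact ⟨hw, rfl⟩

/-- The part of the cross term carried by `Z` is nonnegative. -/
theorem odd_part_nonneg {Z : Ω → Prop} {rb rc : Ω → Ω → Prop} (hrb : Equivalence rb)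
    (hrc : Equivalence rc) (hZb : ∀ x y, rb x y → (Z x ↔ Z y))
    (hZc : ∀ x y, rc x y → (Z x ↔ Z y))
    (hrect : ∀ x y z, Z y → rb x y → rc y z → ∃ w, rc x w ∧ rb w z)
    (hZuniq : ∀ x y, Z x → rb x y → rc x y → x = y) (g : Ω → ℝ) :
    0 ≤ ∑ x, (if Z x then (g - eavg rb g) x * (g - eavg rc g) x else 0) := by
  have hP := isAvg_eavg (relOn_equiv hrb hZb)
  have hQ := isAvg_eavg (relOn_equiv hrc hZc)
  have h0 := ip_compl_nonneg hP hQ.compl (fun f => by
    show eavg (relOn Z rb) (f - eavg (relOn Z rc) f)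
      = eavg (relOn Z rb) f - eavg (relOn Z rc) (eavg (relOn Z rb) f)
    rw [eavg_sub, relOn_comm hrb hrc hZb hZc hrect hZuniq]) g
  have e : ip (g - eavg (relOn Z rb) g) (g - eavg (relOn Z rc) g)
      = ∑ x, (if Z x then (g - eavg rb g) x * (g - eavg rc g) x else 0) := by
    unfold ip
    apply Finset.sum_congr rfl
    intro x _
    by_cases hx : Z x
    · rw [if_pos hx]
      simp only [Pi.sub_apply]
      rw [eavg_relOn_of_mem hrb g hx, eavg_relOn_of_mem hrc g hx]
    · rw [if_neg hx]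
      simp only [Pi.sub_apply]
      rw [eavg_relOn_of_not_mem g hx]
      ring
  rw [← e]
  exact h0

/-- On a moved point, averaging over the `ra`-class after symmetrising along `F` is the mean over
the moved points of the `rb`-class. -/
theorem avg_flip_class {ra rb : Ω → Ω → Prop} (hra : Equivalence ra) (hrb : Equivalence rb)
    (F : Ω → Ω) (Nn : Ω → Prop)
    (hF : ∀ x, F (F x) = x) (hNF : ∀ x, Nn x ↔ F x ≠ x)
    (hFb : ∀ x, rb x (F x)) (hab : ∀ x y, ra x y → rb x y)
    (hN : ∀ x y, Nn x → Nn y → rb x y → ra x y ∨ ra x (F y))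
    (hNra : ∀ x y, ra x y → (Nn x ↔ Nn y))
    (hNFa : ∀ x, Nn x → ¬ ra x (F x))
    (φ : Ω → ℝ) (x : Ω) (hx : Nn x) :
    eavg ra (fun y => (φ y + φ (F y)) / 2) x
      = (∑ y ∈ (ecls rb x).filter Nn, φ y) / (((ecls rb x).filter Nn).card : ℝ) := by
  have hFinj : Function.Injective F := fun p q h => by rw [← hF p, ← hF q, h]
  have hNFx : ∀ y, Nn y → Nn (F y) := by
    intro y hy
    rw [hNF] at hy ⊢
    rw [hF]
    exact fun h => hy h.symm
  have hset : (ecls rb x).filter Nn = ecls ra x ∪ (ecls ra x).image F := by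
    ext y
    simp only [mem_filter, mem_union, mem_image, mem_ecls]
    constructor
    · rintro ⟨hxy, hy⟩
      rcases hN x y hx hy hxy with h | h
      · exact Or.inl h
      · exact Or.inr ⟨F y, h, hF y⟩
    · intro h
      rcases h with h | ⟨y', h, hy'⟩
      · exact ⟨hab x y h, (hNra x y h).1 hx⟩
      · rw [← hy']
        exact ⟨hrb.trans (hab x y' h) (hFb y'), hNFx y' ((hNra x y' h).1 hx)⟩
  have hdisj : Disjoint (ecls ra x) ((ecls ra x).image F) := by
    rw [Finset.disjoint_left]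
    intro y hy hy2
    obtain ⟨y', hy', hyy⟩ := mem_image.1 hy2
    rw [mem_ecls] at hy hy'
    rw [← hyy] at hy
    exact hNFa y' ((hNra x y' hy').1 hx) (hra.trans (hra.symm hy') hy)
  have hsum : ∑ y ∈ (ecls rb x).filter Nn, φ y
      = ∑ y ∈ ecls ra x, φ y + ∑ y ∈ ecls ra x, φ (F y) := by
    rw [hset, Finset.sum_union hdisj, Finset.sum_image (fun p _ q _ h => hFinj h)]
  have hcard : (((ecls rb x).filter Nn).card : ℝ) = 2 * ((ecls ra x).card : ℝ) := by
    rw [hset, Finset.card_union_of_disjoint hdisj, Finset.card_image_of_injective _ hFinj]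
    push_cast
    ring
  have hpos := card_ecls_pos hra x
  rw [hsum, hcard]
  unfold eavg
  rw [← Finset.sum_add_distrib, ← Finset.sum_div, div_div]

/-- The correction term: squares of the means over the moved points of the classes. -/
noncomputable def kapE (r : Ω → Ω → Prop) (Nn : Ω → Prop) (g : Ω → ℝ) : ℝ :=
  ∑ x ∈ univ.filter Nn,
    ((∑ y ∈ (ecls r x).filter Nn, g y) / (((ecls r x).filter Nn).card : ℝ)) ^ 2

/-- The abstract two-orbit inequality. -/
theorem two_orbit_alt (rb rc ra ra2 : Ω → Ω → Prop)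
    (hrb : Equivalence rb) (hrc : Equivalence rc) (hra : Equivalence ra)
    (hra2 : Equivalence ra2)
    (sg : (Ω → ℝ) → (Ω → ℝ)) (F : Ω → Ω) (Z Nn : Ω → Prop)
    (hsg : IsAvg sg)
    (hsgF : ∀ (f : Ω → ℝ) (x : Ω), sg f x = (f x + f (F x)) / 2)
    (hXi_sg : ∀ f, eavg rb (sg f) = eavg rb f) (hsg_Xi : ∀ f, sg (eavg rb f) = eavg rb f)
    (hXi2_sg : ∀ f, eavg rc (sg f) = eavg rc f) (hsg_Xi2 : ∀ f, sg (eavg rc f) = eavg rc f)
    (haa2 : ∀ f, eavg ra (eavg ra2 f) = eavg ra2 (eavg ra f))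
    (hasg : ∀ f, eavg ra (sg f) = sg (eavg ra f))
    (ha2sg : ∀ f, eavg ra2 (sg f) = sg (eavg ra2 f))
    (hXi_a2 : ∀ f, eavg rb (eavg ra2 f) = eavg ra2 (eavg rb f))
    (hXi2_a : ∀ f, eavg rc (eavg ra f) = eavg ra (eavg rc f))
    (hF : ∀ x, F (F x) = x) (hNF : ∀ x, Nn x ↔ F x ≠ x)
    (hFb : ∀ x, rb x (F x)) (hFc : ∀ x, rc x (F x))
    (hab : ∀ x y, ra x y → rb x y) (hab2 : ∀ x y, ra2 x y → rc x y)
    (hZb : ∀ x y, rb x y → (Z x ↔ Z y)) (hZc : ∀ x y, rc x y → (Z x ↔ Z y))
    (hZN : ∀ x, Z x → ¬ Nn x)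
    (hrect : ∀ x y z, Z y → rb x y → rc y z → ∃ w, rc x w ∧ rb w z)
    (hZuniq : ∀ x y, Z x → rb x y → rc x y → x = y)
    (hE : ∀ x, ¬ Z x → ¬ Nn x → (∀ y, rb x y → ra x y) ∨ (∀ y, rc x y → ra2 x y))
    (hN : ∀ x y, Nn x → Nn y → rb x y → ra x y ∨ ra x (F y))
    (hN2 : ∀ x y, Nn x → Nn y → rc x y → ra2 x y ∨ ra2 x (F y))
    (hNra : ∀ x y, ra x y → (Nn x ↔ Nn y)) (hNra2 : ∀ x y, ra2 x y → (Nn x ↔ Nn y))
    (hNFa : ∀ x, Nn x → ¬ ra x (F x)) (hNFa2 : ∀ x, Nn x → ¬ ra2 x (F x))
    (f : Ω → ℝ) :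
    (1 / 2) * ∑ x, (f x - f (F x)) ^ 2 - kapE rb Nn (f - eavg rb f)
        - kapE rc Nn (f - eavg rc f)
      ≤ 2 * ip (f - eavg rb f) (f - eavg rc f) := by
  have hXi := isAvg_eavg hrb
  have hXi2 := isAvg_eavg hrc
  have ha := isAvg_eavg hra
  have ha2 := isAvg_eavg hra2
  have hN1 : ∀ g : Ω → ℝ, eavg ra g = g → eavg ra2 g = g → sg g = g →
      ∑ x ∈ univ.filter Nn, (g - eavg rb g) x * (g - eavg rc g) x
        ≤ ip (g - eavg rb g) (g - eavg rc g) := by
    intro g hag ha2g _
    have hodd := odd_part_nonneg hrb hrc hZb hZc hrect hZuniq g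
    have hsplit : ip (g - eavg rb g) (g - eavg rc g)
        = ∑ x ∈ univ.filter Nn, (g - eavg rb g) x * (g - eavg rc g) x
          + ∑ x, (if Z x then (g - eavg rb g) x * (g - eavg rc g) x else 0) := by
      unfold ip
      rw [Finset.sum_filter, ← Finset.sum_add_distrib]
      apply Finset.sum_congr rfl
      intro x _
      by_cases hxN : Nn x
      · have hxZ : ¬ Z x := fun h => hZN x h hxN
        rw [if_pos hxN, if_neg hxZ, add_zero]
      · by_cases hxZ : Z x
        · rw [if_neg hxN, if_pos hxZ, zero_add]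
        · rw [if_neg hxN, if_neg hxZ, add_zero]
          rcases hE x hxZ hxN with h | h
          · have e : eavg rb g x = g x := eavg_apply_of_const hrb g x (fun y hy => by
              have h2 := eavg_inv hra g x y (h y hy)
              rw [hag] at h2
              exact h2.symm)
            simp only [Pi.sub_apply]
            rw [e]; ring
          · have e : eavg rc g x = g x := eavg_apply_of_const hrc g x (fun y hy => by
              have h2 := eavg_inv hra2 g x y (h y hy)
              rw [ha2g] at h2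
              exact h2.symm)
            simp only [Pi.sub_apply]
            rw [e]; ring
    rw [hsplit]
    linarith
  have key := pair_alg (eavg rb) (eavg rc) (eavg ra) (eavg ra2) sg hXi hXi2 ha ha2 hsg
    (fun f => eavg_tower' hra hrb hab f) (fun f => eavg_tower hra hrb hab f)
    hXi_sg hsg_Xi
    (fun f => eavg_tower' hra2 hrc hab2 f) (fun f => eavg_tower hra2 hrc hab2 f)
    hXi2_sg hsg_Xi2 haa2 hasg ha2sg hXi_a2 hXi2_a
    (univ.filter Nn)
    (fun k => eavg_restrict (univ.filter Nn) (fun x y h => by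
      simp only [mem_filter, mem_univ, true_and]; exact hNra x y h) k)
    (fun k => eavg_restrict (univ.filter Nn) (fun x y h => by
      simp only [mem_filter, mem_univ, true_and]; exact hNra2 x y h) k)
    hN1 f
  have e1 : ip (f - sg f) (f - sg f) = (1 / 4) * ∑ x, (f x - f (F x)) ^ 2 := by
    unfold ip
    rw [Finset.mul_sum]
    apply Finset.sum_congr rfl
    intro x _
    simp only [Pi.sub_apply]
    rw [hsgF]
    ring
  have e2 : ∑ x ∈ univ.filter Nn, (eavg ra (sg (f - eavg rb f)) x) ^ 2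
      = kapE rb Nn (f - eavg rb f) := by
    unfold kapE
    apply Finset.sum_congr rfl
    intro x hx
    have hx' : Nn x := (mem_filter.1 hx).2
    have hsgfun : sg (f - eavg rb f)
        = fun y => ((f - eavg rb f) y + (f - eavg rb f) (F y)) / 2 :=
      funext (fun y => hsgF _ y)
    rw [hsgfun, avg_flip_class hra hrb F Nn hF hNF hFb hab hN hNra hNFa (f - eavg rb f) x hx']
  have e3 : ∑ x ∈ univ.filter Nn, (eavg ra2 (sg (f - eavg rc f)) x) ^ 2
      = kapE rc Nn (f - eavg rc f) := by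
    unfold kapE
    apply Finset.sum_congr rfl
    intro x hx
    have hx' : Nn x := (mem_filter.1 hx).2
    have hsgfun : sg (f - eavg rc f)
        = fun y => ((f - eavg rc f) y + (f - eavg rc f) (F y)) / 2 :=
      funext (fun y => hsgF _ y)
    rw [hsgfun, avg_flip_class hra2 hrc F Nn hF hNF hFc hab2 hN2 hNra2 hNFa2 (f - eavg rc f) x hx']
  rw [e1, e2, e3] at key
  linarith

end Vale.Agent.Lib.P335.H16
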